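import Mathlib

/-! Definitions for P037 (ordered binary matrix removal), exactly as in the problem file. -/

namespace Vale.Agent.H5.P037

/-- The number `N_H(A)` of ordered copies of the `k × k` binary pattern `H` in the `n × n`
binary matrix `A`: pairs of strictly increasing choices `r` of rows and `c` of columns with
`A (r i) (c j) = H i j` for all `i, j`. -/
noncomputable def numCopies {k n : ℕ} (H : Matrix (Fin k) (Fin k) Bool)
    (A : Matrix (Fin n) (Fin n) Bool) : ℕ :=
  Nat.card {p : (Fin k → Fin n) × (Fin k → Fin n) //
    StrictMono p.1 ∧ StrictMono p.2 ∧ ∀ i j, A (p.1 i) (p.2 j) = H i j}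

/-- The number of entries in which two `n × n` binary matrices differ. -/
noncomputable def numDiff {n : ℕ} (A B : Matrix (Fin n) (Fin n) Bool) : ℕ :=
  Nat.card {p : Fin n × Fin n // A p.1 p.2 ≠ B p.1 p.2}

/-- The distance of `A` from `H`-freeness: `1/n^2` times the minimum (infimum of a finite set)
over all `H`-free `n × n` binary matrices `B` of the number of entries where `A`, `B` differ. -/
noncomputable def distFree {k n : ℕ} (H : Matrix (Fin k) (Fin k) Bool)
    (A : Matrix (Fin n) (Fin n) Bool) : ℝ :=
  sInf {d : ℝ | ∃ B : Matrix (Fin n) (Fin n) Bool,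
    numCopies H B = 0 ∧ d = 1 / (n : ℝ) ^ 2 * (numDiff A B : ℝ)}

/-- The `3 × 3` binary pattern with `0` on the diagonal and `1` off the diagonal. -/
def H3 : Matrix (Fin 3) (Fin 3) Bool := fun i j => decide (i ≠ j)

end Vale.Agent.H5.P037
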