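import Mathlib
import Vale.Agent.H5.P037Defs

/-! Core construction for the disproof of P037. -/

namespace Vale.Agent.H5.P037

/-- Comparison predicate number `m`. -/
def PP (L m x y : ℕ) : Prop :=
  if m ≤ L then y / 2 ^ (L - m) ≤ x / 2 ^ (L - m) else y / 2 ^ (m - L - 1) < x / 2 ^ (m - L - 1)

instance (L m x y : ℕ) : Decidable (PP L m x y) := by unfold PP; infer_instance

/-- The digit used at step `m`. -/
def bt (L m x : ℕ) : ℕ :=
  if m < L then (x / 2 ^ (L - m - 1)) % 2 else if m = L then 0 else (x / 2 ^ (m - L - 1)) % 2

lemma bt_lt (L m x : ℕ) : bt L m x < 2 := by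
  unfold bt; split_ifs <;> omega

lemma div_pow_succ (x e : ℕ) : x / 2 ^ (e + 1) = x / 2 ^ e / 2 := by
  rw [pow_succ, Nat.div_div_eq_div_mul]

lemma PP_succ {L m x y : ℕ} (h : PP L (m + 1) x y) : PP L m x y := by
  unfold PP at *
  rcases lt_trichotomy m L with hm | hm | hm
  · obtain ⟨e, he⟩ : ∃ e, L = m + 1 + e := ⟨L - (m + 1), by omega⟩
    rw [if_pos (by omega)] at h
    rw [if_pos (by omega)]
    have h1 : L - (m + 1) = e := by omega
    have h2 : L - m = e + 1 := by omega
    rw [h1] at h
    rw [h2, div_pow_succ, div_pow_succ]
    omega
  · subst hm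
    rw [if_neg (by omega)] at h
    rw [if_pos (by omega)]
    simp at h ⊢
    omega
  · obtain ⟨e, he⟩ : ∃ e, m = L + 1 + e := ⟨m - (L + 1), by omega⟩
    rw [if_neg (by omega)] at h
    rw [if_neg (by omega)]
    have h1 : m + 1 - L - 1 = e + 1 := by omega
    have h2 : m - L - 1 = e := by omega
    rw [h1, div_pow_succ, div_pow_succ] at h
    rw [h2]
    omega

lemma PP_anti {L m m' x y : ℕ} (hm : m ≤ m') (h : PP L m' x y) : PP L m x y := by
  induction m', hm using Nat.le_induction with
  | base => exact h
  | succ k _ ih => exact ih (PP_succ h)

lemma PP_mono {L m x x' y y' : ℕ} (hx : x ≤ x') (hy : y' ≤ y) (h : PP L m x y) :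
    PP L m x' y' := by
  unfold PP at *
  split_ifs at * with hm
  · exact (Nat.div_le_div_right hy).trans (h.trans (Nat.div_le_div_right hx))
  · exact (Nat.div_le_div_right hy).trans_lt (h.trans_le (Nat.div_le_div_right hx))

lemma PP_R {L m x x' y : ℕ} (hx : x ≤ x') (h : PP L m x y) (h' : ¬ PP L (m + 1) x' y)
    (hb : bt L m x' = bt L m y) : m = L ∧ x = y ∧ x' = y := by
  unfold PP at *
  unfold bt at hb
  rcases lt_trichotomy m L with hm | hm | hm
  · exfalso
    obtain ⟨e, he⟩ : ∃ e, L = m + 1 + e := ⟨L - (m + 1), by omega⟩
    rw [if_pos (by omega)] at h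
    rw [if_pos (by omega)] at h'
    rw [if_pos hm, if_pos hm] at hb
    have h1 : L - (m + 1) = e := by omega
    have h2 : L - m = e + 1 := by omega
    have h3 : L - m - 1 = e := by omega
    rw [h2, div_pow_succ, div_pow_succ] at h
    rw [h1] at h'
    rw [h3] at hb
    have hx' := Nat.div_le_div_right (c := 2 ^ e) hx
    omega
  · subst hm
    rw [if_pos le_rfl] at h
    rw [if_neg (by omega)] at h'
    simp at h h'
    omega
  · exfalso
    obtain ⟨e, he⟩ : ∃ e, m = L + 1 + e := ⟨m - (L + 1), by omega⟩
    rw [if_neg (by omega)] at h
    rw [if_neg (by omega)] at h'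
    rw [if_neg (by omega), if_neg (by omega), if_neg (by omega), if_neg (by omega)] at hb
    have h1 : m + 1 - L - 1 = e + 1 := by omega
    have h2 : m - L - 1 = e := by omega
    rw [h2] at h hb
    rw [h1, div_pow_succ, div_pow_succ] at h'
    have hx' := Nat.div_le_div_right (c := 2 ^ e) hx
    omega

lemma PP_zero {L x y : ℕ} (hy : y < 2 ^ L) : PP L 0 x y := by
  unfold PP
  rw [if_pos (Nat.zero_le _)]
  simp [Nat.div_eq_of_lt hy]

lemma not_PP_last {L x y : ℕ} (hx : x < 2 ^ L) : ¬ PP L (2 * L + 1) x y := by
  unfold PP
  rw [if_neg (by omega)]
  have : 2 * L + 1 - L - 1 = L := by omega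
  rw [this, Nat.div_eq_of_lt hx]
  exact Nat.not_lt_zero _

/-- Row labels. -/
inductive RLab
  | T
  | M (x m : ℕ)
  | S (k v : ℕ)

/-- Column labels. -/
inductive CLab
  | Y (k v : ℕ)
  | M (y l : ℕ)
  | B

/-- The entry determined by the labels. -/
def ent (L : ℕ) : RLab → CLab → Bool
  | .T, .Y _ _ => false
  | .T, .M _ _ => true
  | .T, .B => false
  | .M x m, .Y k v => if v < 2 then decide (m = k + 1 ∧ bt L k x = v) else decide (m = k)
  | .M x m, .M y l => decide (PP L (max m l) x y)
  | .M _ _, .B => true
  | .S k v, .Y k' v' => decide (k = k' ∧ v = v')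
  | .S k v, .M y l => if v < 2 then decide (l = k ∧ bt L k y = v) else decide (l = k)
  | .S _ _, .B => false

/-- Order compatibility of row labels. -/
def RLE : RLab → RLab → Prop
  | .T, _ => True
  | .M _ _, .T => False
  | .M x _, .M x' _ => x ≤ x'
  | .M _ _, .S _ _ => True
  | .S _ _, .T => False
  | .S _ _, .M _ _ => False
  | .S _ _, .S _ _ => True

/-- Order compatibility of column labels. -/
def CLE : CLab → CLab → Prop
  | .Y _ _, _ => True
  | .M _ _, .Y _ _ => False
  | .M y _, .M y' _ => y ≤ y'
  | .M _ _, .B => True
  | .B, .Y _ _ => False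
  | .B, .M _ _ => False
  | .B, .B => True

lemma zA {L i m l x x' y : ℕ} (hx : x ≤ x') (h : PP L (max i l) x y)
    (h' : ¬ PP L (max m l) x' y) : l < m := by
  by_contra hc
  push Not at hc
  rw [max_eq_right hc] at h'
  exact h' (PP_mono hx le_rfl (PP_anti (le_max_right _ _) h))

lemma zR {L m l l' x y y' : ℕ} (hy : y ≤ y') (h : PP L (max m l') x y')
    (h' : ¬ PP L (max m l) x y) : m < l := by
  by_contra hc
  push Not at hc
  rw [max_eq_left hc] at h'
  exact h' (PP_mono le_rfl hy (PP_anti (le_max_left _ _) h))

theorem no_copy {L : ℕ} (a1 a2 a3 : RLab) (b1 b2 b3 : CLab) (h12 : RLE a1 a2) (h23 : RLE a2 a3)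
    (k12 : CLE b1 b2) (k23 : CLE b2 b3)
    (e11 : ent L a1 b1 = false) (e12 : ent L a1 b2 = true) (e13 : ent L a1 b3 = true)
    (e21 : ent L a2 b1 = true) (e22 : ent L a2 b2 = false) (e23 : ent L a2 b3 = true)
    (e31 : ent L a3 b1 = true) (e32 : ent L a3 b2 = true) (e33 : ent L a3 b3 = false) :
    ∃ x, a2 = .M x (L + 1) ∧ b2 = .M x L := by
  cases a2 with
  | T =>
    exfalso
    cases b1 <;> cases b2 <;> cases b3 <;> simp_all [ent, CLE]
  | S k v =>
    exfalso
    cases a3 with
    | T => simp [RLE] at h23
    | M _ _ => simp [RLE] at h23
    | S k' v' =>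
      cases b1 with
      | B => simp [ent] at e21
      | Y p q =>
        simp only [ent, decide_eq_true_eq] at e21 e31
        obtain ⟨rfl, rfl⟩ := e21
        obtain ⟨rfl, rfl⟩ := e31
        rw [e22] at e32
        exact absurd e32 (by simp)
      | M y l =>
        cases b2 with
        | B => simp [ent] at e32
        | Y _ _ => simp [CLE] at k12
        | M y2 l2 =>
          cases b3 with
          | B => simp [ent] at e23
          | Y _ _ => simp [CLE] at k23
          | M y3 l3 =>
            by_cases hv : v < 2 <;> by_cases hv' : v' < 2 <;>
              simp only [ent, hv, hv', if_true, if_false, decide_eq_true_eq,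
                decide_eq_false_iff_not] at e21 e22 e23 e31 e32 e33
            · obtain ⟨rfl, h1⟩ := e21
              obtain ⟨rfl, h2⟩ := e31
              obtain ⟨rfl, h3⟩ := e32
              exact e22 ⟨rfl, by omega⟩
            · obtain ⟨rfl, h1⟩ := e23
              omega
            · omega
            · omega
  | M x m =>
    cases b2 with
    | B => simp [ent] at e22
    | Y p2 q2 =>
      exfalso
      cases b1 with
      | M _ _ => simp [CLE] at k12
      | B => simp [CLE] at k12
      | Y p q =>
        cases a3 with
        | T => simp [RLE] at h23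
        | S k v =>
          simp only [ent, decide_eq_true_eq] at e31 e32
          obtain ⟨rfl, rfl⟩ := e31
          obtain ⟨rfl, rfl⟩ := e32
          rw [e22] at e21
          exact absurd e21 (by simp)
        | M x3 m3 =>
          cases a1 with
          | T => simp [ent] at e12
          | S _ _ => simp [RLE] at h12
          | M x1 m1 =>
            by_cases hv : q < 2 <;> by_cases hv' : q2 < 2 <;>
              simp only [ent, hv, hv', if_true, if_false, decide_eq_true_eq,
                decide_eq_false_iff_not] at e11 e12 e21 e22 e31 e32
            · obtain ⟨h1, h2⟩ := e31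
              obtain ⟨h3, h4⟩ := e32
              obtain rfl : p = p2 := by omega
              obtain rfl : q = q2 := by omega
              exact e22 e21
            · omega
            · omega
            · omega
    | M y l =>
      cases b1 with
      | B => simp [CLE] at k12
      | Y p q =>
        cases a3 with
        | T => simp [RLE] at h23
        | M x3 m3 =>
          exfalso
          cases b3 with
          | B => simp [ent] at e33
          | Y _ _ => simp [CLE] at k23
          | M y3 l3 =>
            simp only [RLE, CLE] at h23 k23
            have hm : m = m3 := by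
              simp only [ent] at e21 e31
              split_ifs at e21 e31 <;> simp only [decide_eq_true_eq] at e21 e31 <;> omega
            subst hm
            simp only [ent, decide_eq_true_eq, decide_eq_false_iff_not] at e23 e33
            exact e33 (PP_mono h23 le_rfl e23)
        | S k v =>
          simp only [ent, decide_eq_true_eq] at e31
          obtain ⟨rfl, rfl⟩ := e31
          cases b3 with
          | Y _ _ => simp [CLE] at k23
          | B =>
            cases a1 with
            | T => simp [ent] at e13
            | S _ _ => simp [RLE] at h12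
            | M x1 m1 =>
              simp only [RLE] at h12
              by_cases hv : v < 2 <;>
                simp only [ent, hv, if_true, if_false, decide_eq_true_eq,
                  decide_eq_false_iff_not] at e12 e21 e22 e32
              · obtain ⟨rfl, h1⟩ := e21
                obtain ⟨rfl, h2⟩ := e32
                rw [max_eq_left (by omega)] at e22
                obtain ⟨h3, h4, h5⟩ := PP_R h12 (PP_anti (le_max_right _ _) e12) e22
                  (h1.trans h2.symm)
                subst h3 h5
                exact ⟨x, rfl, rfl⟩
              · have := zA h12 e12 e22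
                omega
          | M y3 l3 =>
            exfalso
            simp only [CLE] at k23
            have h1 : m < l := by
              simp only [ent, decide_eq_true_eq, decide_eq_false_iff_not] at e22 e23
              exact zR k23 e23 e22
            simp only [ent] at e21 e32
            split_ifs at e21 e32 <;> simp only [decide_eq_true_eq] at e21 e32 <;> omega
      | M y1 l1 =>
        exfalso
        cases a1 with
        | T => simp [ent] at e11
        | S _ _ => simp [RLE] at h12
        | M x1 m1 =>
          simp only [RLE, CLE] at h12 k12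
          cases a3 with
          | T => simp [RLE] at h23
          | M x3 m3 =>
            cases b3 with
            | B => simp [ent] at e33
            | Y _ _ => simp [CLE] at k23
            | M y3 l3 =>
              simp only [CLE] at k23
              simp only [ent, decide_eq_true_eq, decide_eq_false_iff_not] at e12 e22 e23
              have h1 := zA h12 e12 e22
              have h2 := zR k23 e23 e22
              omega
          | S k v =>
            have hl : l1 = l := by
              simp only [ent] at e31 e32
              split_ifs at e31 e32 <;> simp only [decide_eq_true_eq] at e31 e32 <;> omega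
            subst hl
            simp only [ent, decide_eq_true_eq, decide_eq_false_iff_not] at e11 e12
            exact e11 (PP_mono le_rfl k12 e12)

end Vale.Agent.H5.P037
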