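import Mathlib
import Vale.Agent.H5.P037Core

/-! Index labels and the far-ness argument for P037. -/

namespace Vale.Agent.H5.P037

/-- Row label of index `r`; `K = 2^L`. -/
def labR (L K r : ℕ) : RLab :=
  if r < K then .T
  else if r < 2 * K then .M 0 0
  else if r < 2 * K + 2 * (L * K) then .M ((r - 2 * K) / (2 * L)) ((r - 2 * K) % (2 * L) + 1)
  else if r < 3 * K + 2 * (L * K) then .M (K - 1) (2 * L + 1)
  else .S ((r / K - (2 * L + 3)) / 3) ((r / K - (2 * L + 3)) % 3)

/-- Column label of index `c`. -/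
def labC (L K c : ℕ) : CLab :=
  if c < 6 * (L * K) + 3 * K then .Y (c / K / 3) (c / K % 3)
  else if c < 8 * (L * K) + 4 * K then
    .M ((c - (6 * (L * K) + 3 * K)) / (2 * L + 1))
      (2 * L - (c - (6 * (L * K) + 3 * K)) % (2 * L + 1))
  else .B

lemma labR_mono {L K r r' : ℕ} (h : r ≤ r') : RLE (labR L K r) (labR L K r') := by
  unfold labR
  split_ifs <;> simp only [RLE] <;> try omega
  · exact Nat.zero_le _
  · exact Nat.div_le_div_right (by omega)
  · have h1 : (r - 2 * K) / (2 * L) < K := by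
      apply Nat.div_lt_of_lt_mul
      have : 2 * L * K = 2 * (L * K) := by ring
      omega
    omega

lemma labC_mono {L K c c' : ℕ} (h : c ≤ c') : CLE (labC L K c) (labC L K c') := by
  unfold labC
  split_ifs <;> simp only [CLE] <;> try omega
  exact Nat.div_le_div_right (by omega)

lemma labR_T {L K z : ℕ} (hz : z < K) : labR L K z = .T := by
  unfold labR; rw [if_pos hz]

lemma labR_P {L K z : ℕ} (hz : z < K) : labR L K (K + z) = .M 0 0 := by
  unfold labR; rw [if_neg (by omega), if_pos (by omega)]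

lemma labR_M {L K N m : ℕ} (hN : N < K) (hm : 1 ≤ m) (hm' : m ≤ 2 * L) :
    labR L K (2 * K + 2 * (N * L) + (m - 1)) = .M N m := by
  have h1 : N * L + L ≤ L * K := by nlinarith
  unfold labR
  rw [if_neg (by omega), if_neg (by omega), if_pos (by omega)]
  have h2 : 2 * K + 2 * (N * L) + (m - 1) - 2 * K = (m - 1) + (2 * L) * N := by
    have : 2 * L * N = 2 * (N * L) := by ring
    omega
  rw [h2, Nat.add_mul_div_left _ _ (by omega), Nat.add_mul_mod_self_left,
    Nat.mod_eq_of_lt (by omega), Nat.div_eq_of_lt (by omega)]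
  congr 1
  · omega
  · omega

lemma labR_Q {L K z : ℕ} (hz : z < K) :
    labR L K (2 * K + 2 * (L * K) + z) = .M (K - 1) (2 * L + 1) := by
  unfold labR
  rw [if_neg (by omega), if_neg (by omega), if_neg (by omega), if_pos (by omega)]

lemma labR_S {L K e z : ℕ} (hz : z < K) :
    labR L K (3 * K + 2 * (L * K) + e * K + z) = .S (e / 3) (e % 3) := by
  unfold labR
  rw [if_neg (by nlinarith), if_neg (by nlinarith), if_neg (by nlinarith), if_neg (by nlinarith)]
  have h2 : (3 * K + 2 * (L * K) + e * K + z) / K = 2 * L + 3 + e := by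
    have : 3 * K + 2 * (L * K) + e * K + z = z + K * (2 * L + 3 + e) := by ring
    rw [this, Nat.add_mul_div_left _ _ (by omega), Nat.div_eq_of_lt hz]
    omega
  rw [h2]
  congr 2 <;> omega

lemma labC_Y {L K e z : ℕ} (hz : z < K) (he : e < 6 * L + 3) :
    labC L K (e * K + z) = .Y (e / 3) (e % 3) := by
  unfold labC
  have h0 : e * K + K ≤ 6 * (L * K) + 3 * K := by nlinarith
  rw [if_pos (by omega)]
  have h2 : (e * K + z) / K = e := by
    have : e * K + z = z + K * e := by ring
    rw [this, Nat.add_mul_div_left _ _ (by omega), Nat.div_eq_of_lt hz]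
    omega
  rw [h2]

lemma labC_M {L K N l : ℕ} (hN : N < K) (hl : l ≤ 2 * L) :
    labC L K (6 * (L * K) + 3 * K + (2 * (N * L) + N) + (2 * L - l)) = .M N l := by
  have h1 : N * L + L ≤ L * K := by nlinarith
  unfold labC
  rw [if_neg (by omega), if_pos (by omega)]
  have h2 : 6 * (L * K) + 3 * K + (2 * (N * L) + N) + (2 * L - l) - (6 * (L * K) + 3 * K)
      = (2 * L - l) + (2 * L + 1) * N := by
    have : (2 * L + 1) * N = 2 * (N * L) + N := by ring
    omega
  rw [h2, Nat.add_mul_div_left _ _ (by omega), Nat.add_mul_mod_self_left,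
    Nat.mod_eq_of_lt (by omega), Nat.div_eq_of_lt (by omega)]
  congr 1 <;> omega

lemma labC_B {L K z : ℕ} : labC L K (8 * (L * K) + 4 * K + z) = .B := by
  unfold labC
  rw [if_neg (by omega), if_neg (by omega)]

/-- Positions attached to the parameters `N, z, z'`. -/
def Rob (L K N z z' r c : ℕ) : Prop :=
  (r % K = z ∧ c % K = z') ∨ ((r - 2 * K) / (2 * L) = N ∧ c % K = z') ∨
    (r % K = z ∧ (c - (6 * (L * K) + 3 * K)) / (2 * L + 1) = N)

/-- The forbidden pattern `J - I` at six indices. -/
def Pat (Bf : ℕ → ℕ → Bool) (r1 r2 r3 c1 c2 c3 : ℕ) : Prop :=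
  Bf r1 c1 = false ∧ Bf r1 c2 = true ∧ Bf r1 c3 = true ∧
  Bf r2 c1 = true ∧ Bf r2 c2 = false ∧ Bf r2 c3 = true ∧
  Bf r3 c1 = true ∧ Bf r3 c2 = true ∧ Bf r3 c3 = false

/-- Row number `m` of the chain. -/
def rr (L K N z m : ℕ) : ℕ :=
  if m = 0 then K + z else if m ≤ 2 * L then 2 * K + 2 * (N * L) + (m - 1)
  else 2 * K + 2 * (L * K) + z

/-- Column number `l` of the chain. -/
def cc (L K N l : ℕ) : ℕ := 6 * (L * K) + 3 * K + (2 * (N * L) + N) + (2 * L - l)

lemma rr_zero {L K N z : ℕ} : rr L K N z 0 = K + z := by simp [rr]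

lemma rr_mid {L K N z m : ℕ} (h1 : 1 ≤ m) (h2 : m ≤ 2 * L) :
    rr L K N z m = 2 * K + 2 * (N * L) + (m - 1) := by
  unfold rr; rw [if_neg (by omega), if_pos h2]

lemma rr_last {L K N z : ℕ} : rr L K N z (2 * L + 1) = 2 * K + 2 * (L * K) + z := by
  unfold rr; rw [if_neg (by omega), if_neg (by omega)]

lemma rr_lt {L K N z m : ℕ} (hL : 1 ≤ L) (hN : N < K) (hz : z < K) (hm : m ≤ 2 * L) :
    rr L K N z m < rr L K N z (m + 1) := by
  have h1 : N * L + L ≤ L * K := by nlinarith
  rcases Nat.eq_zero_or_pos m with rfl | hm0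
  · rw [rr_zero, rr_mid (by omega) (by omega)]; omega
  · rw [rr_mid hm0 hm]
    rcases Nat.lt_or_ge m (2 * L) with h | h
    · rw [rr_mid (by omega) (by omega)]; omega
    · obtain rfl : m = 2 * L := by omega
      rw [rr_last]; omega

/-- Location of the row `rr m`. -/
def xl (L K N m : ℕ) : ℕ := if m = 0 then 0 else if m ≤ 2 * L then N else K - 1

lemma labR_rr {L K N z m : ℕ} (hN : N < K) (hz : z < K) (hm : m ≤ 2 * L + 1) :
    labR L K (rr L K N z m) = .M (xl L K N m) m := by
  rcases Nat.eq_zero_or_pos m with rfl | hm0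
  · rw [rr_zero, labR_P hz]; simp [xl]
  · rcases Nat.lt_or_ge (2 * L) m with h | h
    · obtain rfl : m = 2 * L + 1 := by omega
      rw [rr_last, labR_Q hz]
      unfold xl
      rw [if_neg (by omega), if_neg (by omega)]
    · rw [rr_mid hm0 h, labR_M hN hm0 h]
      unfold xl
      rw [if_neg (by omega), if_pos h]

lemma bt_xl {L K N m : ℕ} (hL : 1 ≤ L) (hK : K = 2 ^ L) (hN : 2 ^ (L - 1) ≤ N) (hN' : N < K)
    (hm : m ≤ 2 * L) : bt L m (xl L K N (m + 1)) = bt L m N := by
  unfold xl
  rw [if_neg (by omega)]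
  split_ifs with h
  · rfl
  · obtain rfl : m = 2 * L := by omega
    unfold bt
    rw [if_neg (by omega), if_neg (by omega), if_neg (by omega), if_neg (by omega)]
    have h1 : 2 * L - L - 1 = L - 1 := by omega
    rw [h1]
    have h2 : K = 2 ^ (L - 1) * 2 := by
      rw [hK, ← pow_succ]
      congr 1
      omega
    have h3 : N / 2 ^ (L - 1) = 1 := by
      apply Nat.div_eq_of_lt_le <;> omega
    have h4 : (K - 1) / 2 ^ (L - 1) = 1 := by
      apply Nat.div_eq_of_lt_le <;> omega
    rw [h3, h4]

theorem chain {L K N z z' : ℕ} (hL : 1 ≤ L) (hK : K = 2 ^ L) (hN : 2 ^ (L - 1) ≤ N) (hN' : N < K)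
    (hz : z < K) (hz' : z' < K) (Bf : ℕ → ℕ → Bool)
    (hfree : ∀ r1 r2 r3 c1 c2 c3, r1 < r2 → r2 < r3 → r3 < 8 * (L * K) + 6 * K →
      c1 < c2 → c2 < c3 → c3 < 8 * (L * K) + 6 * K → ¬ Pat Bf r1 r2 r3 c1 c2 c3)
    (hag : ∀ r c, r < 8 * (L * K) + 6 * K → c < 8 * (L * K) + 6 * K → Rob L K N z z' r c →
      Bf r c = ent L (labR L K r) (labC L K c)) : False := by
  have h1 : N * L + L ≤ L * K := by nlinarith
  -- outer residues
  have modT : z % K = z := Nat.mod_eq_of_lt hz
  have modS : ∀ e, (3 * K + 2 * (L * K) + e * K + z) % K = z := by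
    intro e
    have : 3 * K + 2 * (L * K) + e * K + z = z + K * (3 + 2 * L + e) := by ring
    rw [this, Nat.add_mul_mod_self_left, modT]
  have modY : ∀ e, (e * K + z') % K = z' := by
    intro e
    have : e * K + z' = z' + K * e := by ring
    rw [this, Nat.add_mul_mod_self_left, Nat.mod_eq_of_lt hz']
  have modB : (8 * (L * K) + 4 * K + z') % K = z' := by
    have : 8 * (L * K) + 4 * K + z' = z' + K * (8 * L + 4) := by ring
    rw [this, Nat.add_mul_mod_self_left, Nat.mod_eq_of_lt hz']
  have divC : ∀ l, l ≤ 2 * L → (cc L K N l - (6 * (L * K) + 3 * K)) / (2 * L + 1) = N := by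
    intro l hl
    unfold cc
    have h2 : 6 * (L * K) + 3 * K + (2 * (N * L) + N) + (2 * L - l) - (6 * (L * K) + 3 * K)
        = (2 * L - l) + (2 * L + 1) * N := by
      have : (2 * L + 1) * N = 2 * (N * L) + N := by ring
      omega
    rw [h2, Nat.add_mul_div_left _ _ (by omega), Nat.div_eq_of_lt (by omega)]
    omega
  -- a chain row against an outer column
  have rowOut : ∀ m c, m ≤ 2 * L + 1 → c < 8 * (L * K) + 6 * K → c % K = z' →
      Bf (rr L K N z m) c = ent L (.M (xl L K N m) m) (labC L K c) := by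
    intro m c hm hc hcz
    rw [← labR_rr hN' hz hm]
    rcases Nat.eq_zero_or_pos m with rfl | hm0
    · apply hag _ _ _ hc
      · left
        refine ⟨?_, hcz⟩
        rw [rr_zero, Nat.add_mod_left, modT]
      · rw [rr_zero]; omega
    · rcases Nat.lt_or_ge (2 * L) m with h | h
      · obtain rfl : m = 2 * L + 1 := by omega
        apply hag _ _ _ hc
        · left
          refine ⟨?_, hcz⟩
          rw [rr_last]
          have : 2 * K + 2 * (L * K) + z = z + K * (2 + 2 * L) := by ring
          rw [this, Nat.add_mul_mod_self_left, modT]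
        · rw [rr_last]; omega
      · apply hag _ _ _ hc
        · right; left
          refine ⟨?_, hcz⟩
          rw [rr_mid hm0 h]
          have h2 : 2 * K + 2 * (N * L) + (m - 1) - 2 * K = (m - 1) + (2 * L) * N := by
            have : 2 * L * N = 2 * (N * L) := by ring
            omega
          rw [h2, Nat.add_mul_div_left _ _ (by omega), Nat.div_eq_of_lt (by omega)]
          omega
        · rw [rr_mid hm0 h]; omega
  -- an outer row against anything
  have outOut : ∀ r c, r < 8 * (L * K) + 6 * K → c < 8 * (L * K) + 6 * K → r % K = z →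
      c % K = z' → Bf r c = ent L (labR L K r) (labC L K c) :=
    fun r c hr hc h h' => hag r c hr hc (Or.inl ⟨h, h'⟩)
  have ccLt : ∀ l, l ≤ 2 * L → cc L K N l < 8 * (L * K) + 4 * K := by
    intro l hl; unfold cc; omega
  have outCol : ∀ r l, r < 8 * (L * K) + 6 * K → l ≤ 2 * L → r % K = z →
      Bf r (cc L K N l) = ent L (labR L K r) (.M N l) := by
    intro r l hr hl h
    have h2 : labC L K (cc L K N l) = .M N l := labC_M hN' hl
    rw [← h2]
    exact hag r _ hr (by have := ccLt l hl; omega) (Or.inr (Or.inr ⟨h, divC l hl⟩))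
  have rrLt : ∀ m, m ≤ 2 * L + 1 → rr L K N z m < 3 * K + 2 * (L * K) := by
    intro m hm
    rcases Nat.eq_zero_or_pos m with rfl | hm0
    · rw [rr_zero]; omega
    · rcases Nat.lt_or_ge (2 * L) m with h | h
      · obtain rfl : m = 2 * L + 1 := by omega
        rw [rr_last]; omega
      · rw [rr_mid hm0 h]; omega
  -- row step
  have stepR : ∀ m, m ≤ 2 * L → Bf (rr L K N z m) (cc L K N m) = true →
      Bf (rr L K N z (m + 1)) (cc L K N m) = true := by
    intro m hm hB
    by_contra hne
    rw [Bool.not_eq_true] at hne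
    set v := bt L m N with hv
    have hv2 : v < 2 := bt_lt _ _ _
    have he : 3 * m + v < 6 * L + 3 := by omega
    have he1 : (3 * m + v) / 3 = m := by omega
    have he2 : (3 * m + v) % 3 = v := by omega
    have heK : (3 * m + v) * K + K ≤ 6 * (L * K) + 3 * K := by nlinarith
    have hlY : labC L K ((3 * m + v) * K + z') = .Y m v := by
      rw [labC_Y hz' he, he1, he2]
    have hlS : labR L K (3 * K + 2 * (L * K) + (3 * m + v) * K + z) = .S m v := by
      rw [labR_S hz, he1, he2]
    have hlB : labC L K (8 * (L * K) + 4 * K + z') = .B := labC_B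
    have hcc := ccLt m hm
    have hcc0 : 6 * (L * K) + 3 * K ≤ cc L K N m := by unfold cc; omega
    have hrr := rrLt (m + 1) (by omega)
    refine hfree (rr L K N z m) (rr L K N z (m + 1))
      (3 * K + 2 * (L * K) + (3 * m + v) * K + z) ((3 * m + v) * K + z') (cc L K N m)
      (8 * (L * K) + 4 * K + z') (rr_lt hL hN' hz hm) (by omega) (by omega) (by omega) (by omega)
      (by omega) ⟨?_, hB, ?_, ?_, hne, ?_, ?_, ?_, ?_⟩
    · rw [rowOut _ _ (by omega) (by omega) (modY _), hlY]
      simp [ent, hv2]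
    · rw [rowOut _ _ (by omega) (by omega) modB, hlB]
      simp [ent]
    · rw [rowOut _ _ (by omega) (by omega) (modY _), hlY]
      simp only [ent, hv2, if_true, decide_eq_true_eq, true_and]
      exact bt_xl hL hK hN hN' hm
    · rw [rowOut _ _ (by omega) (by omega) modB, hlB]
      simp [ent]
    · rw [outOut _ _ (by omega) (by omega) (modS _) (modY _), hlS, hlY]
      simp [ent]
    · rw [outCol _ _ (by omega) hm (modS _), hlS]
      simp [ent, hv2, hv]
    · rw [outOut _ _ (by omega) (by omega) (modS _) modB, hlS, hlB]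
      simp [ent]
  -- column step
  have stepC : ∀ m, m + 1 ≤ 2 * L → Bf (rr L K N z (m + 1)) (cc L K N m) = true →
      Bf (rr L K N z (m + 1)) (cc L K N (m + 1)) = true := by
    intro m hm hB
    by_contra hne
    rw [Bool.not_eq_true] at hne
    have he : 3 * (m + 1) + 2 < 6 * L + 3 := by omega
    have he1 : (3 * (m + 1) + 2) / 3 = m + 1 := by omega
    have he2 : (3 * (m + 1) + 2) % 3 = 2 := by omega
    have heK : (3 * (m + 1) + 2) * K + K ≤ 6 * (L * K) + 3 * K := by nlinarith
    have hlY : labC L K ((3 * (m + 1) + 2) * K + z') = .Y (m + 1) 2 := by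
      rw [labC_Y hz' he, he1, he2]
    have hlS : labR L K (3 * K + 2 * (L * K) + (3 * (m + 1) + 2) * K + z) = .S (m + 1) 2 := by
      rw [labR_S hz, he1, he2]
    have hcc := ccLt m (by omega)
    have hcc0 : 6 * (L * K) + 3 * K ≤ cc L K N (m + 1) := by unfold cc; omega
    have hcc1 : cc L K N (m + 1) < cc L K N m := by unfold cc; omega
    have hrr := rrLt (m + 1) (by omega)
    have hrr0 : K ≤ rr L K N z (m + 1) := by rw [rr_mid (by omega) hm]; omega
    refine hfree z (rr L K N z (m + 1))
      (3 * K + 2 * (L * K) + (3 * (m + 1) + 2) * K + z) ((3 * (m + 1) + 2) * K + z')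
      (cc L K N (m + 1)) (cc L K N m) (by omega) (by omega) (by omega) (by omega) hcc1
      (by omega) ⟨?_, ?_, ?_, ?_, hne, hB, ?_, ?_, ?_⟩
    · rw [outOut _ _ (by omega) (by omega) modT (modY _), labR_T hz, hlY]
      simp [ent]
    · rw [outCol _ _ (by omega) hm modT, labR_T hz]
      simp [ent]
    · rw [outCol _ _ (by omega) (by omega) modT, labR_T hz]
      simp [ent]
    · rw [rowOut _ _ (by omega) (by omega) (modY _), hlY]
      simp [ent]
    · rw [outOut _ _ (by omega) (by omega) (modS _) (modY _), hlS, hlY]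
      simp [ent]
    · rw [outCol _ _ (by omega) hm (modS _), hlS]
      simp [ent]
    · rw [outCol _ _ (by omega) (by omega) (modS _), hlS]
      simp [ent]
  -- agreement facts
  have key : ∀ m, m ≤ 2 * L → Bf (rr L K N z m) (cc L K N m) = true := by
    intro m
    induction m with
    | zero =>
      intro _
      rw [outCol _ _ (by rw [rr_zero]; omega) (by omega)
        (by rw [rr_zero, Nat.add_mod_left, modT]), rr_zero, labR_P hz]
      simp only [ent, max_self, decide_eq_true_eq]
      exact PP_zero (by rw [← hK]; exact hN')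
    | succ m ih =>
      intro hm
      exact stepC m hm (stepR m (by omega) (ih (by omega)))
  have hfin := stepR (2 * L) le_rfl (key (2 * L) le_rfl)
  rw [rr_last, outCol _ _ (by omega) le_rfl (by
    have : 2 * K + 2 * (L * K) + z = z + K * (2 + 2 * L) := by ring
    rw [this, Nat.add_mul_mod_self_left, modT]), labR_Q hz] at hfin
  simp only [ent, decide_eq_true_eq] at hfin
  rw [max_eq_left (by omega)] at hfin
  exact not_PP_last (by rw [← hK]; omega) hfin

end Vale.Agent.H5.P037
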