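import Mathlib
import Vale.Agent.H5.P037Defs
import Vale.Agent.H5.P037Far

/-! Base matrices for P037: few copies, far from free. -/

namespace Vale.Agent.H5.P037

/-- Size of the base matrix. -/
def nn (L : ℕ) : ℕ := 8 * (L * 2 ^ L) + 6 * 2 ^ L

/-- The base matrix. -/
def A0 (L : ℕ) : Matrix (Fin (nn L)) (Fin (nn L)) Bool :=
  fun i j => ent L (labR L (2 ^ L) i) (labC L (2 ^ L) j)

lemma labC_inj {L K x c c' : ℕ} (h : labC L K c = .M x L) (h' : labC L K c' = .M x L) :
    c = c' := by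
  unfold labC at h h'
  split_ifs at h with h1 h2
  split_ifs at h' with h1' h2'
  simp only [CLab.M.injEq] at h h'
  have a1 := Nat.div_add_mod (c - (6 * (L * K) + 3 * K)) (2 * L + 1)
  have a2 := Nat.div_add_mod (c' - (6 * (L * K) + 3 * K)) (2 * L + 1)
  have b1 := Nat.mod_lt (c - (6 * (L * K) + 3 * K)) (show 2 * L + 1 > 0 by omega)
  have b2 := Nat.mod_lt (c' - (6 * (L * K) + 3 * K)) (show 2 * L + 1 > 0 by omega)
  rw [h.1] at a1
  rw [h'.1] at a2
  have e1 : (c - (6 * (L * K) + 3 * K)) % (2 * L + 1) = L := by omega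
  have e2 : (c' - (6 * (L * K) + 3 * K)) % (2 * L + 1) = L := by omega
  rw [e1] at a1
  rw [e2] at a2
  omega

theorem base_count (L : ℕ) : numCopies H3 (A0 L) ≤ nn L ^ 5 := by
  classical
  unfold numCopies
  have hcard : Nat.card (Fin (nn L) × Fin (nn L) × Fin (nn L) × Fin (nn L) × Fin (nn L))
      = nn L ^ 5 := by
    simp only [Nat.card_eq_fintype_card, Fintype.card_prod, Fintype.card_fin]
    ring
  rw [← hcard]
  apply Nat.card_le_card_of_injective
    (fun p => (p.1.1 0, p.1.1 1, p.1.1 2, p.1.2 0, p.1.2 2))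
  rintro ⟨⟨r, c⟩, hr, hc, hp⟩ ⟨⟨r', c'⟩, hr', hc', hp'⟩ h
  simp only [Prod.mk.injEq] at h
  obtain ⟨e0, e1, e2, e3, e4⟩ := h
  dsimp only at hr hc hp hr' hc' hp'
  have main : ∀ (r c : Fin 3 → Fin (nn L)), StrictMono r → StrictMono c →
      (∀ i j, A0 L (r i) (c j) = H3 i j) →
      ∃ x, labR L (2 ^ L) (r 1) = .M x (L + 1) ∧ labC L (2 ^ L) (c 1) = .M x L := by
    intro r c hr hc hp
    have R01 : ((r 0 : Fin _) : ℕ) ≤ r 1 := (hr (by decide : (0 : Fin 3) < 1)).le
    have R12 : ((r 1 : Fin _) : ℕ) ≤ r 2 := (hr (by decide : (1 : Fin 3) < 2)).le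
    have C01 : ((c 0 : Fin _) : ℕ) ≤ c 1 := (hc (by decide : (0 : Fin 3) < 1)).le
    have C12 : ((c 1 : Fin _) : ℕ) ≤ c 2 := (hc (by decide : (1 : Fin 3) < 2)).le
    have hq : ∀ i j, ent L (labR L (2 ^ L) (r i)) (labC L (2 ^ L) (c j)) = H3 i j := hp
    exact no_copy _ (labR L (2 ^ L) (r 1)) _ _ (labC L (2 ^ L) (c 1)) _
      (labR_mono R01) (labR_mono R12) (labC_mono C01) (labC_mono C12)
      (by rw [hq 0 0]; rfl) (by rw [hq 0 1]; rfl) (by rw [hq 0 2]; rfl)
      (by rw [hq 1 0]; rfl) (by rw [hq 1 1]; rfl) (by rw [hq 1 2]; rfl)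
      (by rw [hq 2 0]; rfl) (by rw [hq 2 1]; rfl) (by rw [hq 2 2]; rfl)
  obtain ⟨x, hx1, hx2⟩ := main r c hr hc hp
  obtain ⟨x', hx1', hx2'⟩ := main r' c' hr' hc' hp'
  have hxx : x = x' := by
    rw [← e1, hx1] at hx1'
    simp only [RLab.M.injEq, and_true] at hx1'
    exact hx1'
  subst hxx
  have hc1 : c 1 = c' 1 := Fin.ext (labC_inj hx2 hx2')
  have hrr : r = r' := by
    funext i
    fin_cases i <;> simp_all
  have hcc : c = c' := by
    funext i
    fin_cases i <;> simp_all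
  subst hrr hcc
  rfl

/-- A concrete copy prevents freeness. -/
lemma not_pat_of_free {n : ℕ} {B : Matrix (Fin n) (Fin n) Bool} (hB : numCopies H3 B = 0)
    {r1 r2 r3 c1 c2 c3 : ℕ} (h12 : r1 < r2) (h23 : r2 < r3) (hr : r3 < n)
    (k12 : c1 < c2) (k23 : c2 < c3) (hc : c3 < n) :
    ¬ Pat (fun r c => if h : r < n ∧ c < n then B ⟨r, h.1⟩ ⟨c, h.2⟩ else false)
      r1 r2 r3 c1 c2 c3 := by
  intro hpat
  unfold numCopies at hB
  rw [Finite.card_eq_zero_iff] at hB
  obtain ⟨p11, p12, p13, p21, p22, p23, p31, p32, p33⟩ := hpat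
  have q1 : r1 < n := by omega
  have q2 : r2 < n := by omega
  have q3 : c1 < n := by omega
  have q4 : c2 < n := by omega
  simp only [q1, q2, q3, q4, hr, hc, and_self, dite_true] at p11 p12 p13 p21 p22 p23 p31 p32 p33
  refine hB.false ⟨(![⟨r1, q1⟩, ⟨r2, q2⟩, ⟨r3, hr⟩], ![⟨c1, q3⟩, ⟨c2, q4⟩, ⟨c3, hc⟩]), ?_, ?_, ?_⟩
  · rw [Fin.strictMono_iff_lt_succ]
    intro i
    fin_cases i
    · exact h12
    · exact h23
  · rw [Fin.strictMono_iff_lt_succ]
    intro i
    fin_cases i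
    · exact k12
    · exact k23
  · intro i j
    fin_cases i <;> fin_cases j <;> first | exact p11 | exact p12 | exact p13 | exact p21 | exact p22 | exact p23 | exact p31 | exact p32 | exact p33

theorem base_far {L : ℕ} (hL : 1 ≤ L) (B : Matrix (Fin (nn L)) (Fin (nn L)) Bool)
    (hB : numCopies H3 B = 0) : (2 ^ L) ^ 2 ≤ 6 * numDiff (A0 L) B := by
  classical
  set K := 2 ^ L with hK
  have hnn : nn L = 8 * (L * K) + 6 * K := rfl
  set Bf : ℕ → ℕ → Bool := fun r c => if h : r < nn L ∧ c < nn L then B ⟨r, h.1⟩ ⟨c, h.2⟩ else false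
    with hBf
  have hex : ∀ x : ℕ × ℕ × ℕ, x ∈ Finset.Ico (2 ^ (L - 1)) K ×ˢ Finset.range K ×ˢ Finset.range K →
      ∃ p : Fin (nn L) × Fin (nn L), Rob L K x.1 x.2.1 x.2.2 p.1 p.2 ∧ A0 L p.1 p.2 ≠ B p.1 p.2 := by
    rintro ⟨N, z, z'⟩ hx
    simp only [Finset.mem_product, Finset.mem_Ico, Finset.mem_range] at hx
    by_contra hcon
    push Not at hcon
    refine chain hL hK hx.1.1 hx.1.2 hx.2.1 hx.2.2 Bf ?_ ?_
    · intro r1 r2 r3 c1 c2 c3 h12 h23 hr k12 k23 hc
      exact not_pat_of_free hB h12 h23 hr k12 k23 hc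
    · intro r c hr hc hrob
      have := hcon (⟨r, hr⟩, ⟨c, hc⟩) hrob
      simp only [A0] at this
      rw [← hK] at this
      rw [this, hBf]
      have h2 : r < nn L ∧ c < nn L := ⟨hr, hc⟩
      simp only [h2, and_self, dite_true]
  have hKp : 0 < K := by positivity
  have : Nonempty (Fin (nn L)) := ⟨⟨0, by rw [hnn]; omega⟩⟩
  choose! f hf using hex
  have hDelta : numDiff (A0 L) B
      = (Finset.univ.filter fun p : Fin (nn L) × Fin (nn L) => A0 L p.1 p.2 ≠ B p.1 p.2).card := by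
    unfold numDiff
    rw [Nat.card_eq_fintype_card, Fintype.card_subtype]
  have hmain := Finset.card_le_mul_card_image_of_maps_to (f := f)
    (s := Finset.Ico (2 ^ (L - 1)) K ×ˢ Finset.range K ×ˢ Finset.range K)
    (t := Finset.univ.filter fun p : Fin (nn L) × Fin (nn L) => A0 L p.1 p.2 ≠ B p.1 p.2)
    (fun x hx => by simpa using (hf x hx).2) (3 * K) (by
      rintro ⟨r, c⟩ _
      have hsub : (Finset.filter (fun a => f a = (r, c))
          (Finset.Ico (2 ^ (L - 1)) K ×ˢ Finset.range K ×ˢ Finset.range K)) ⊆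
          ((Finset.range K).image fun N => (N, (r : ℕ) % K, (c : ℕ) % K)) ∪
          (((Finset.range K).image fun z => (((r : ℕ) - 2 * K) / (2 * L), z, (c : ℕ) % K)) ∪
          ((Finset.range K).image fun z' =>
            (((c : ℕ) - (6 * (L * K) + 3 * K)) / (2 * L + 1), (r : ℕ) % K, z'))) := by
        rintro ⟨N, z, z'⟩ hx
        rw [Finset.mem_filter] at hx
        obtain ⟨hx, hfx⟩ := hx
        have h1 := (hf _ hx).1
        rw [hfx] at h1
        simp only [Finset.mem_product, Finset.mem_Ico, Finset.mem_range] at hx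
        simp only [Finset.mem_union, Finset.mem_image, Finset.mem_range, Prod.mk.injEq]
        unfold Rob at h1
        rcases h1 with ⟨h1, h2⟩ | ⟨h1, h2⟩ | ⟨h1, h2⟩
        · left; exact ⟨N, hx.1.2, rfl, h1, h2⟩
        · right; left; exact ⟨z, hx.2.1, h1, rfl, h2⟩
        · right; right; exact ⟨z', hx.2.2, h2, h1, rfl⟩
      refine (Finset.card_le_card hsub).trans ?_
      refine (Finset.card_union_le _ _).trans ?_
      have c1 := Finset.card_image_le (s := Finset.range K)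
        (f := fun N => (N, (r : ℕ) % K, (c : ℕ) % K))
      have c2 := Finset.card_image_le (s := Finset.range K)
        (f := fun z => (((r : ℕ) - 2 * K) / (2 * L), z, (c : ℕ) % K))
      have c3 := Finset.card_image_le (s := Finset.range K)
        (f := fun z' => (((c : ℕ) - (6 * (L * K) + 3 * K)) / (2 * L + 1), (r : ℕ) % K, z'))
      have c4 := Finset.card_union_le
        ((Finset.range K).image fun z => (((r : ℕ) - 2 * K) / (2 * L), z, (c : ℕ) % K))
        ((Finset.range K).image fun z' =>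
            (((c : ℕ) - (6 * (L * K) + 3 * K)) / (2 * L + 1), (r : ℕ) % K, z'))
      rw [Finset.card_range] at c1 c2 c3
      omega)
  rw [← hDelta] at hmain
  simp only [Finset.card_product, Nat.card_Ico, Finset.card_range] at hmain
  have hK2 : K = 2 ^ (L - 1) * 2 := by
    rw [hK, ← pow_succ]
    congr 1
    omega
  have hKpos : 0 < K := by rw [hK]; positivity
  have h3 : K - 2 ^ (L - 1) = 2 ^ (L - 1) := by omega
  rw [h3] at hmain
  have h4 : K * K * K ≤ 6 * K * numDiff (A0 L) B := by nlinarith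
  have h5 : K * (K * K) ≤ K * (6 * numDiff (A0 L) B) := by nlinarith
  have := Nat.le_of_mul_le_mul_left h5 hKpos
  rw [sq]
  exact this

end Vale.Agent.H5.P037
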