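import Mathlib
import Vale.Agent.H5.P037Defs
import Vale.Agent.H5.P037Base

/-! Blow-ups to all large sizes for P037. -/

namespace Vale.Agent.H5.P037

/-- The monotone map used for blow-ups. -/
def phi (w n0 n : ℕ) (h : 0 < n0) (i : Fin n) : Fin n0 :=
  ⟨min ((i : ℕ) / w) (n0 - 1), by omega⟩

/-- The blow-up. -/
def blow {n0 : ℕ} (w n : ℕ) (h : 0 < n0) (A : Matrix (Fin n0) (Fin n0) Bool) :
    Matrix (Fin n) (Fin n) Bool := fun i j => A (phi w n0 n h i) (phi w n0 n h j)

lemma phi_mono {w n0 n : ℕ} (h : 0 < n0) : Monotone (phi w n0 n h) := by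
  intro i j hij
  have h1 : (i : ℕ) / w ≤ (j : ℕ) / w := Nat.div_le_div_right hij
  change min ((i : ℕ) / w) (n0 - 1) ≤ min ((j : ℕ) / w) (n0 - 1)
  omega

lemma fiber_card {w n0 n : ℕ} (h : 0 < n0) (hw : 0 < w) (hn : n < w * n0 + w + 1)
    (i0 : Fin n0) :
    (Finset.univ.filter fun i : Fin n => phi w n0 n h i = i0).card ≤ 2 * w := by
  classical
  have hsub : ((Finset.univ.filter fun i : Fin n => phi w n0 n h i = i0).image
      (fun i : Fin n => (i : ℕ))) ⊆ Finset.Ico ((i0 : ℕ) * w) ((i0 : ℕ) * w + 2 * w) := by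
    intro x hx
    simp only [Finset.mem_image, Finset.mem_filter, Finset.mem_univ, true_and] at hx
    obtain ⟨i, hi, rfl⟩ := hx
    rw [Finset.mem_Ico]
    have h1 : min ((i : ℕ) / w) (n0 - 1) = (i0 : ℕ) := congrArg Fin.val hi
    have h2 := i0.2
    have h3 := i.2
    have h4 := Nat.div_add_mod (i : ℕ) w
    have h5 := Nat.mod_lt (i : ℕ) hw
    rcases Nat.lt_or_ge ((i : ℕ) / w) n0 with hlt | hge
    · have h6 : (i : ℕ) / w = i0 := by omega
      rw [h6] at h4
      have : w * (i0 : ℕ) = (i0 : ℕ) * w := Nat.mul_comm _ _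
      omega
    · have h6 : (i0 : ℕ) = n0 - 1 := by omega
      have h7 : (i0 : ℕ) * w + w = w * n0 := by
        rw [h6, Nat.sub_mul, Nat.mul_comm n0 w]
        have : w ≤ w * n0 := Nat.le_mul_of_pos_right _ h
        omega
      have h8 : w * n0 ≤ w * ((i : ℕ) / w) := Nat.mul_le_mul_left _ hge
      omega
  have := Finset.card_le_card hsub
  rw [Finset.card_image_of_injective _ Fin.val_injective] at this
  simpa using this

theorem blow_count {w n0 n : ℕ} (h : 0 < n0) (hw : 0 < w) (hn : n < w * n0 + w + 1)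
    (A : Matrix (Fin n0) (Fin n0) Bool) :
    numCopies H3 (blow w n h A) ≤ (2 * w) ^ 6 * numCopies H3 A := by
  classical
  have hN : ∀ (m : ℕ) (A : Matrix (Fin m) (Fin m) Bool), numCopies H3 A =
      (Finset.univ.filter fun p : (Fin 3 → Fin m) × (Fin 3 → Fin m) =>
        StrictMono p.1 ∧ StrictMono p.2 ∧ ∀ i j, A (p.1 i) (p.2 j) = H3 i j).card := by
    intro m A
    unfold numCopies
    rw [Nat.card_eq_fintype_card, Fintype.card_subtype]
  rw [hN, hN]
  set ph := phi w n0 n h with hph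
  apply Finset.card_le_mul_card_image_of_maps_to
    (f := fun p : (Fin 3 → Fin n) × (Fin 3 → Fin n) => (ph ∘ p.1, ph ∘ p.2))
  · rintro ⟨r, c⟩ hp
    simp only [Finset.mem_filter, Finset.mem_univ, true_and] at hp ⊢
    obtain ⟨hr, hc, hA⟩ := hp
    have hA' : ∀ i j, A (ph (r i)) (ph (c j)) = H3 i j := hA
    refine ⟨?_, ?_, hA⟩
    · intro i j hij
      refine lt_of_le_of_ne (phi_mono h (hr hij).le) ?_
      intro heq
      have h1 := hA' i i
      have h2 := hA' j i
      simp only [Function.comp] at heq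
      change ph (r i) = ph (r j) at heq
      rw [heq, h2] at h1
      simp only [H3] at h1
      have : j = i := by
        by_contra hne
        simp [hne] at h1
      exact absurd this (ne_of_gt hij)
    · intro i j hij
      refine lt_of_le_of_ne (phi_mono h (hc hij).le) ?_
      intro heq
      have h1 := hA' i i
      have h2 := hA' i j
      change ph (c i) = ph (c j) at heq
      rw [heq, h2] at h1
      simp only [H3] at h1
      have : i = j := by
        by_contra hne
        simp [hne] at h1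
      exact absurd this (ne_of_lt hij)
  · rintro ⟨r0, c0⟩ _
    have hsub : (Finset.filter (fun p : (Fin 3 → Fin n) × (Fin 3 → Fin n) =>
          (ph ∘ p.1, ph ∘ p.2) = (r0, c0))
        (Finset.univ.filter fun p : (Fin 3 → Fin n) × (Fin 3 → Fin n) =>
        StrictMono p.1 ∧ StrictMono p.2 ∧ ∀ i j, blow w n h A (p.1 i) (p.2 j) = H3 i j)) ⊆
        (Fintype.piFinset fun i => Finset.univ.filter fun x : Fin n => ph x = r0 i) ×ˢ
        (Fintype.piFinset fun i => Finset.univ.filter fun x : Fin n => ph x = c0 i) := by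
      rintro ⟨r, c⟩ hp
      simp only [Finset.mem_filter, Prod.mk.injEq] at hp
      obtain ⟨-, h1, h2⟩ := hp
      simp only [Finset.mem_product, Fintype.mem_piFinset, Finset.mem_filter, Finset.mem_univ,
        true_and]
      exact ⟨fun i => congrFun h1 i, fun i => congrFun h2 i⟩
    refine (Finset.card_le_card hsub).trans ?_
    rw [Finset.card_product, Fintype.card_piFinset, Fintype.card_piFinset]
    have hb : ∀ x : Fin 3 → Fin n0,
        ∏ i, (Finset.univ.filter fun y : Fin n => ph y = x i).card ≤ (2 * w) ^ 3 := by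
      intro x
      refine (Finset.prod_le_pow_card _ _ (2 * w) ?_).trans ?_
      · intro i _
        exact fiber_card h hw hn _
      · simp
    calc _ ≤ (2 * w) ^ 3 * (2 * w) ^ 3 := Nat.mul_le_mul (hb _) (hb _)
      _ = (2 * w) ^ 6 := by ring

theorem blow_far {w n0 n : ℕ} (h : 0 < n0) (hw : 0 < w) (hn : w * n0 ≤ n)
    (A : Matrix (Fin n0) (Fin n0) Bool) (D : ℕ)
    (hA : ∀ B : Matrix (Fin n0) (Fin n0) Bool, numCopies H3 B = 0 → D ≤ 6 * numDiff A B)
    (B : Matrix (Fin n) (Fin n) Bool) (hB : numCopies H3 B = 0) :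
    w ^ 2 * D ≤ 6 * numDiff (blow w n h A) B := by
  classical
  have hD : ∀ (m : ℕ) (A B : Matrix (Fin m) (Fin m) Bool), numDiff A B =
      (Finset.univ.filter fun p : Fin m × Fin m => A p.1 p.2 ≠ B p.1 p.2).card := by
    intro m A B
    unfold numDiff
    rw [Nat.card_eq_fintype_card, Fintype.card_subtype]
  have hpos : ∀ (s : Fin w) (i : Fin n0), (i : ℕ) * w + s < n := by
    intro s i
    have h1 : ((i : ℕ) + 1) * w ≤ n0 * w := Nat.mul_le_mul_right _ i.2
    have h2 := s.2
    have h3 : n0 * w = w * n0 := Nat.mul_comm _ _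
    have h4 : ((i : ℕ) + 1) * w = (i : ℕ) * w + w := by ring
    omega
  set em : Fin w → Fin n0 → Fin n := fun s i => ⟨(i : ℕ) * w + s, hpos s i⟩ with hem
  have hem_mono : ∀ s, StrictMono (em s) := by
    intro s i j hij
    change (i : ℕ) * w + s < (j : ℕ) * w + s
    have : (i : ℕ) * w < (j : ℕ) * w := Nat.mul_lt_mul_of_pos_right hij hw
    omega
  have hphi : ∀ s i, phi w n0 n h (em s i) = i := by
    intro s i
    apply Fin.ext
    change min (((i : ℕ) * w + s) / w) (n0 - 1) = i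
    have h1 : ((i : ℕ) * w + s) / w = i := by
      rw [Nat.add_comm, Nat.add_mul_div_right _ _ hw, Nat.div_eq_of_lt s.2, Nat.zero_add]
    rw [h1]
    have := i.2
    omega
  have hem_inj : ∀ s s' i i', em s i = em s' i' → s = s' ∧ i = i' := by
    intro s s' i i' he
    have h1 : i = i' := by rw [← hphi s i, ← hphi s' i', he]
    subst h1
    refine ⟨?_, rfl⟩
    have h2 : (i : ℕ) * w + s = (i : ℕ) * w + s' := congrArg Fin.val he
    exact Fin.ext (by omega)
  have hfree : ∀ s t, numCopies H3 (fun i j => B (em s i) (em t j) :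
      Matrix (Fin n0) (Fin n0) Bool) = 0 := by
    intro s t
    unfold numCopies at hB ⊢
    rw [Finite.card_eq_zero_iff] at hB ⊢
    constructor
    rintro ⟨⟨r, c⟩, hr, hc, hp⟩
    exact hB.false ⟨(em s ∘ r, em t ∘ c), (hem_mono s).comp hr, (hem_mono t).comp hc, hp⟩
  have hsum : ∑ st : Fin w × Fin w, numDiff A
      (fun i j => B (em st.1 i) (em st.2 j) : Matrix (Fin n0) (Fin n0) Bool)
      ≤ numDiff (blow w n h A) B := by
    have e : ∀ st : Fin w × Fin w, numDiff A
        (fun i j => B (em st.1 i) (em st.2 j) : Matrix (Fin n0) (Fin n0) Bool) =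
        (Finset.univ.filter fun p : Fin n0 × Fin n0 =>
          A p.1 p.2 ≠ B (em st.1 p.1) (em st.2 p.2)).card := fun st => hD _ _ _
    rw [Finset.sum_congr rfl (fun st _ => e st), hD, ← Finset.card_sigma]
    apply Finset.card_le_card_of_injOn
      (fun x => (em x.1.1 x.2.1, em x.1.2 x.2.2))
    · rintro ⟨⟨s, t⟩, i, j⟩ hx
      simp only [Finset.coe_sigma, Finset.coe_univ, Set.mem_sigma_iff, Set.mem_univ, true_and,
        Finset.mem_coe, Finset.mem_filter, Finset.mem_univ] at hx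
      simp only [Finset.coe_filter, Finset.mem_univ, true_and, Set.mem_setOf_eq]
      unfold blow
      rw [hphi, hphi]
      exact hx
    · rintro ⟨⟨s, t⟩, i, j⟩ _ ⟨⟨s', t'⟩, i', j'⟩ _ he
      simp only [Prod.mk.injEq] at he
      obtain ⟨rfl, rfl⟩ := hem_inj _ _ _ _ he.1
      obtain ⟨rfl, rfl⟩ := hem_inj _ _ _ _ he.2
      rfl
  have hle : ∑ _st : Fin w × Fin w, D ≤ ∑ st : Fin w × Fin w, 6 * numDiff A
      (fun i j => B (em st.1 i) (em st.2 j) : Matrix (Fin n0) (Fin n0) Bool) :=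
    Finset.sum_le_sum fun st _ => hA _ (hfree st.1 st.2)
  rw [← Finset.mul_sum] at hle
  simp only [Finset.sum_const, Finset.card_univ, Fintype.card_prod, Fintype.card_fin,
    smul_eq_mul] at hle
  calc w ^ 2 * D = w * w * D := by ring
    _ ≤ _ := hle
    _ ≤ _ := Nat.mul_le_mul_left _ hsum

lemma allTrue_free (n : ℕ) :
    numCopies H3 (fun _ _ => true : Matrix (Fin n) (Fin n) Bool) = 0 := by
  unfold numCopies
  rw [Finite.card_eq_zero_iff]
  constructor
  rintro ⟨⟨r, c⟩, -, -, hp⟩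
  have := hp 0 0
  simp [H3] at this

theorem main {L n : ℕ} (hL : 1 ≤ L) (hn : nn L ^ 2 ≤ n) :
    ∃ A : Matrix (Fin n) (Fin n) Bool,
      1 / (96 * (4 * (L : ℝ) + 3) ^ 2) ≤ distFree H3 A ∧
      (numCopies H3 A : ℝ) ≤ 64 / 2 ^ L * (n : ℝ) ^ 6 := by
  have hK : 0 < 2 ^ L := by positivity
  have hn0 : nn L = 2 ^ L * (8 * L + 6) := by unfold nn; ring
  have hn0pos : 0 < nn L := by rw [hn0]; positivity
  set w := n / nn L with hw
  have hwn0 : nn L ≤ w := by
    rw [hw, Nat.le_div_iff_mul_le hn0pos]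
    rw [← sq]; exact hn
  have hwpos : 0 < w := by omega
  have h1 : w * nn L ≤ n := Nat.div_mul_le_self _ _
  have h2 : n < w * nn L + nn L := by
    have := Nat.lt_div_mul_add (a := n) hn0pos
    exact this
  have hnpos : 0 < n := by nlinarith
  refine ⟨blow w n hn0pos (A0 L), ?_, ?_⟩
  · unfold distFree
    apply le_csInf
    · exact ⟨_, _, allTrue_free n, rfl⟩
    · rintro d ⟨B, hB, rfl⟩
      have h3 := blow_far hn0pos hwpos h1 (A0 L) ((2 ^ L) ^ 2) (fun B hB => base_far hL B hB) B hB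
      have h4 : n ≤ 2 * (w * nn L) := by nlinarith
      have h3' : ((w : ℝ) ^ 2 * (2 ^ L) ^ 2) ≤ 6 * numDiff (blow w n hn0pos (A0 L)) B := by
        exact_mod_cast h3
      have h4' : (n : ℝ) ≤ 2 * (w * (2 ^ L * (8 * L + 6))) := by
        rw [hn0] at h4
        exact_mod_cast h4
      have hnR : (0 : ℝ) < n := by exact_mod_cast hnpos
      have h5 : (n : ℝ) ^ 2 ≤ (2 * (w * (2 ^ L * (8 * L + 6)))) ^ 2 :=
        pow_le_pow_left₀ hnR.le h4' 2
      rw [div_mul_eq_mul_div, one_mul, div_le_div_iff₀ (by positivity) (by positivity), one_mul]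
      calc (n : ℝ) ^ 2 ≤ (2 * (w * (2 ^ L * (8 * L + 6)))) ^ 2 := h5
        _ = ((w : ℝ) ^ 2 * (2 ^ L) ^ 2) * (16 * (4 * L + 3) ^ 2) := by ring
        _ ≤ (6 * numDiff (blow w n hn0pos (A0 L)) B) * (16 * (4 * L + 3) ^ 2) := by
            apply mul_le_mul_of_nonneg_right h3' (by positivity)
        _ = _ := by ring
  · have h3 := blow_count hn0pos hwpos (by omega : n < w * nn L + w + 1) (A0 L)
    have h4 := base_count L
    have h5 : numCopies H3 (blow w n hn0pos (A0 L)) * 2 ^ L ≤ 64 * n ^ 6 := by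
      have h6 : 2 ^ L ≤ nn L := by rw [hn0]; nlinarith
      calc numCopies H3 (blow w n hn0pos (A0 L)) * 2 ^ L
          ≤ ((2 * w) ^ 6 * nn L ^ 5) * nn L :=
            Nat.mul_le_mul (h3.trans (Nat.mul_le_mul_left _ h4)) h6
        _ = 64 * (w * nn L) ^ 6 := by ring
        _ ≤ 64 * n ^ 6 := Nat.mul_le_mul_left _ (Nat.pow_le_pow_left h1 6)
    have h5' : (numCopies H3 (blow w n hn0pos (A0 L)) : ℝ) * 2 ^ L ≤ 64 * (n : ℝ) ^ 6 := by
      exact_mod_cast h5
    rw [div_mul_eq_mul_div, le_div_iff₀ (by positivity)]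
    exact h5'

end Vale.Agent.H5.P037
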